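import Vale.Agent.P162.Defs
import Vale.Agent.P162.Deck

namespace Vale.Agent.Results.P162.ThorpQuadraticLogMixing

open Vale.Agent.P162

/-- For a deck of `2 * 2 ^ d = 2 ^ (d + 1)` cards, after any number `T ≥ 3072 (d + 1) ^ 2` of
Thorp shuffles the law of the permutation of positions is within total variation `1 / 4` of the
uniform law. Hence `t_mix (2 ^ (d + 1)) ≤ 3072 (d + 1) ^ 2`. -/
theorem result (d T : ℕ) (hT : 3072 * (d + 1) ^ 2 ≤ T) :
    tvUniform (convPow (thorpLaw (2 ^ d)) T) ≤ 1 / 4 :=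
  thorp_tv_bound d T hT

end Vale.Agent.Results.P162.ThorpQuadraticLogMixing
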